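import Mathlib
import Crest.Prelude.Def_QuadraticTransport

/-!
# S0110 helper (helper91): Laguerre-type maps are Monge-optimal, and optimal maps are a.e. minimisers

General lemma in `lintegral` form: if `T x` minimises `‖x - y‖² + W y` over a measurable set `A`
of admissible targets, pointwise, then `T` is a quadratic optimal map from `ρ` to `ρ.map T`, and
every quadratic optimal map `S` from `ρ` to `ρ.map T` takes values in `A` and attains the same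
minimum `ρ`-almost everywhere.
-/

set_option autoImplicit false
set_option linter.unusedSectionVars false
open MeasureTheory
open scoped ENNReal NNReal
open Crest.AnalysisR.OT

namespace Crest.Agent.S0110

section General

variable {E : Type*} [NormedAddCommGroup E] [MeasurableSpace E] [BorelSpace E]
  [SecondCountableTopology E]

omit [NormedAddCommGroup E] [BorelSpace E] [SecondCountableTopology E] in
lemma ae_mem_of_map_eq {ρ : Measure E} {S T : E → E} (hS : Measurable S) (hT : Measurable T)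
    (hST : ρ.map S = ρ.map T) {A : Set E} (hA : MeasurableSet A) (hTA : ∀ x, T x ∈ A) :
    ∀ᵐ x ∂ρ, S x ∈ A := by
  have h1 : (ρ.map S) Aᶜ = 0 := by
    rw [hST, Measure.map_apply hT hA.compl]
    have : T ⁻¹' Aᶜ = ∅ := by
      ext x; simp [hTA x]
    rw [this]; exact measure_empty
  rw [Measure.map_apply hS hA.compl] at h1
  rw [ae_iff]
  exact measure_mono_null (fun x hx => hx) h1

lemma measurable_cost {S : E → E} (hS : Measurable S) :
    Measurable (fun x => ‖x - S x‖ₑ ^ 2) :=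
  ((measurable_id.sub hS).enorm).pow_const 2

omit [BorelSpace E] [SecondCountableTopology E] in
lemma lintegral_cost_add {ρ : Measure E} {W : E → ℝ≥0∞} (hW : Measurable W) {S : E → E}
    (hS : Measurable S) :
    ∫⁻ x, (‖x - S x‖ₑ ^ 2 + W (S x)) ∂ρ = ∫⁻ x, ‖x - S x‖ₑ ^ 2 ∂ρ + ∫⁻ x, W (S x) ∂ρ :=
  lintegral_add_right _ (hW.comp hS)

theorem laguerre_optimal (ρ : Measure E) (W : E → ℝ≥0∞) (hW : Measurable W)
    (T : E → E) (hT : Measurable T) (A : Set E) (hA : MeasurableSet A) (hTA : ∀ x, T x ∈ A)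
    (hmin : ∀ x, ∀ y ∈ A, ‖x - T x‖ₑ ^ 2 + W (T x) ≤ ‖x - y‖ₑ ^ 2 + W y)
    (hWfin : ∫⁻ x, W (T x) ∂ρ ≠ ∞) :
    IsOptimalMap ρ (ρ.map T) T := by
  refine ⟨hT, rfl, fun S hS hST => ?_⟩
  have hSA := ae_mem_of_map_eq hS hT hST hA hTA
  have hWS : ∫⁻ x, W (S x) ∂ρ = ∫⁻ x, W (T x) ∂ρ := by
    rw [← lintegral_map hW hS, ← lintegral_map hW hT, hST]
  have h1 : ∫⁻ x, (‖x - T x‖ₑ ^ 2 + W (T x)) ∂ρ ≤ ∫⁻ x, (‖x - S x‖ₑ ^ 2 + W (S x)) ∂ρ := by
    apply lintegral_mono_ae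
    filter_upwards [hSA] with x hx
    exact hmin x (S x) hx
  rw [lintegral_cost_add hW hT, lintegral_cost_add hW hS, hWS] at h1
  exact (ENNReal.add_le_add_iff_right hWfin).1 h1

theorem laguerre_ae_min (ρ : Measure E) (W : E → ℝ≥0∞) (hW : Measurable W)
    (T : E → E) (hT : Measurable T) (A : Set E) (hA : MeasurableSet A) (hTA : ∀ x, T x ∈ A)
    (hmin : ∀ x, ∀ y ∈ A, ‖x - T x‖ₑ ^ 2 + W (T x) ≤ ‖x - y‖ₑ ^ 2 + W y)
    (hWfin : ∫⁻ x, W (T x) ∂ρ ≠ ∞) (hcfin : ∫⁻ x, ‖x - T x‖ₑ ^ 2 ∂ρ ≠ ∞)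
    (S : E → E) (hS : IsOptimalMap ρ (ρ.map T) S) :
    ∀ᵐ x ∂ρ, S x ∈ A ∧ ‖x - S x‖ₑ ^ 2 + W (S x) = ‖x - T x‖ₑ ^ 2 + W (T x) := by
  obtain ⟨hSm, hST, hSopt⟩ := hS
  have hSA := ae_mem_of_map_eq hSm hT hST hA hTA
  have hWS : ∫⁻ x, W (S x) ∂ρ = ∫⁻ x, W (T x) ∂ρ := by
    rw [← lintegral_map hW hSm, ← lintegral_map hW hT, hST]
  have hle : ∫⁻ x, ‖x - S x‖ₑ ^ 2 ∂ρ ≤ ∫⁻ x, ‖x - T x‖ₑ ^ 2 ∂ρ := hSopt T hT rfl
  have hfg : (fun x => ‖x - T x‖ₑ ^ 2 + W (T x)) ≤ᵐ[ρ] (fun x => ‖x - S x‖ₑ ^ 2 + W (S x)) := by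
    filter_upwards [hSA] with x hx using hmin x (S x) hx
  have hmeasS : Measurable (fun x => ‖x - S x‖ₑ ^ 2 + W (S x)) :=
    (measurable_cost hSm).add (hW.comp hSm)
  have hint : ∫⁻ x, (‖x - S x‖ₑ ^ 2 + W (S x)) ∂ρ ≤ ∫⁻ x, (‖x - T x‖ₑ ^ 2 + W (T x)) ∂ρ := by
    rw [lintegral_cost_add hW hT, lintegral_cost_add hW hSm, hWS]
    exact add_le_add hle le_rfl
  have hfin : ∫⁻ x, (‖x - T x‖ₑ ^ 2 + W (T x)) ∂ρ ≠ ∞ := by
    rw [lintegral_cost_add hW hT]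
    exact ENNReal.add_ne_top.2 ⟨hcfin, hWfin⟩
  have heq := ae_eq_of_ae_le_of_lintegral_le hfg hfin hmeasS.aemeasurable hint
  filter_upwards [hSA, heq] with x hx hxe
  exact ⟨hx, hxe.symm⟩

end General

end Crest.Agent.S0110
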