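import Mathlib
import Crest.Prelude.Def_QuadraticTransport
import Crest.Agent.Lib.S0110.Helper91Laguerre

/-!
# S0110 helper (helper91): the three-atom example on the cube

Dimension `k + 2`, cube `Q = [-1,1]^(k+2)`, `ρ` uniform on `Q`.  Atoms `yL = -e₀`, `yR = e₀`,
`yM = -h e₁`; Laguerre map `T x = yM` if `|x₀| < 2h - h x₁`, else `yL`/`yR` by the sign of `x₀`.
`R` is the reflection `x₁ ↦ -x₁`.
-/

set_option autoImplicit false
set_option linter.unusedSectionVars false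
set_option linter.deprecated false
set_option linter.unusedVariables false
open MeasureTheory
open scoped ENNReal NNReal
open Crest.AnalysisR.OT

namespace Crest.Agent.S0110

/-- The ambient Euclidean space of dimension `k + 2`. -/
abbrev Ek (k : ℕ) := EuclideanSpace ℝ (Fin (k + 2))

/-- The cube. -/
def Q (k : ℕ) : Set (Ek k) := {x | ∀ i, |x i| ≤ 1}

noncomputable def yL (k : ℕ) : Ek k := EuclideanSpace.single 0 (-1)
noncomputable def yR (k : ℕ) : Ek k := EuclideanSpace.single 0 1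
noncomputable def yM (k : ℕ) (h : ℝ) : Ek k := EuclideanSpace.single 1 (-h)

/-- The Laguerre map. -/
noncomputable def Tmap (k : ℕ) (h : ℝ) (x : Ek k) : Ek k :=
  if |x 0| < 2 * h - h * x 1 then yM k h else if x 0 < 0 then yL k else yR k

/-- Real weights. -/
noncomputable def wR (k : ℕ) (h : ℝ) (y : Ek k) : ℝ :=
  if y = yM k h then 1 else 4 * h + h ^ 2

/-- Weights in `ℝ≥0∞`. -/
noncomputable def Wt (k : ℕ) (h : ℝ) (y : Ek k) : ℝ≥0∞ := ENNReal.ofReal (wR k h y)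

/-- The set of atoms. -/
def Aset (k : ℕ) (h : ℝ) : Set (Ek k) := {yL k, yM k h, yR k}

lemma meas_coord (k : ℕ) (i : Fin (k + 2)) : Measurable (fun x : Ek k => x i) :=
  (measurable_pi_apply i).comp (WithLp.measurable_ofLp 2 _)

lemma norm_sub_single_sq (k : ℕ) (x : Ek k) (a : ℝ) (i : Fin (k + 2)) :
    ‖x - EuclideanSpace.single i a‖ ^ 2 = ‖x‖ ^ 2 - 2 * a * x i + a ^ 2 := by
  rw [norm_sub_sq_real, EuclideanSpace.inner_single_right]
  simp
  ring

lemma yL_ne_yM (k : ℕ) (h : ℝ) : yL k ≠ yM k h := by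
  intro hh
  have := congrArg (fun v : Ek k => v 0) hh
  simp [yL, yM] at this

lemma yR_ne_yM (k : ℕ) (h : ℝ) : yR k ≠ yM k h := by
  intro hh
  have := congrArg (fun v : Ek k => v 0) hh
  simp [yR, yM] at this

lemma yL_ne_yR (k : ℕ) : yL k ≠ yR k := by
  intro hh
  have := congrArg (fun v : Ek k => v 0) hh
  simp [yL, yR] at this
  linarith

/-- Real cost. -/
noncomputable def Fr (k : ℕ) (h : ℝ) (x y : Ek k) : ℝ := ‖x - y‖ ^ 2 + wR k h y

lemma Fr_yL (k : ℕ) (h : ℝ) (x : Ek k) :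
    Fr k h x (yL k) = ‖x‖ ^ 2 + 2 * x 0 + 1 + (4 * h + h ^ 2) := by
  unfold Fr wR
  rw [if_neg (yL_ne_yM k h), yL, norm_sub_single_sq]; ring

lemma Fr_yR (k : ℕ) (h : ℝ) (x : Ek k) :
    Fr k h x (yR k) = ‖x‖ ^ 2 - 2 * x 0 + 1 + (4 * h + h ^ 2) := by
  unfold Fr wR
  rw [if_neg (yR_ne_yM k h), yR, norm_sub_single_sq]; ring

lemma Fr_yM (k : ℕ) (h : ℝ) (x : Ek k) :
    Fr k h x (yM k h) = ‖x‖ ^ 2 + 2 * h * x 1 + h ^ 2 + 1 := by
  unfold Fr wR
  rw [if_pos rfl, yM, norm_sub_single_sq]; ring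

lemma wR_nonneg (k : ℕ) (h : ℝ) (hh : 0 ≤ h) (y : Ek k) : 0 ≤ wR k h y := by
  unfold wR; split_ifs <;> positivity

lemma enorm_cost_eq (k : ℕ) (h : ℝ) (hh : 0 ≤ h) (x y : Ek k) :
    ‖x - y‖ₑ ^ 2 + Wt k h y = ENNReal.ofReal (Fr k h x y) := by
  unfold Fr Wt
  rw [ENNReal.ofReal_add (by positivity) (wR_nonneg k h hh y),
    ENNReal.ofReal_pow (norm_nonneg _), ofReal_norm_eq_enorm]

lemma Tmap_mem (k : ℕ) (h : ℝ) (x : Ek k) : Tmap k h x ∈ Aset k h := by
  unfold Tmap Aset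
  split_ifs <;> simp

/-- Pointwise minimality in real form. -/
lemma Fr_min (k : ℕ) (h : ℝ) (x y : Ek k) (hy : y ∈ Aset k h) :
    Fr k h x (Tmap k h x) ≤ Fr k h x y := by
  have hL := Fr_yL k h x
  have hR := Fr_yR k h x
  have hM := Fr_yM k h x
  unfold Tmap
  rcases hy with rfl | rfl | rfl
  · split_ifs with h1 h2
    · rw [hL, hM]; have := (abs_lt.1 h1).1; linarith
    · exact le_rfl
    · rw [hL, hR]; linarith
  · split_ifs with h1 h2
    · exact le_rfl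
    · rw [hL, hM]; have := not_lt.1 h1; rw [abs_of_neg h2] at this; linarith
    · rw [hR, hM]; have := not_lt.1 h1; rw [abs_of_nonneg (not_lt.1 h2)] at this; linarith
  · split_ifs with h1 h2
    · rw [hR, hM]; have := (abs_lt.1 h1).2; linarith
    · rw [hL, hR]; linarith
    · exact le_rfl

lemma Tmap_min (k : ℕ) (h : ℝ) (hh : 0 ≤ h) (x y : Ek k) (hy : y ∈ Aset k h) :
    ‖x - Tmap k h x‖ₑ ^ 2 + Wt k h (Tmap k h x) ≤ ‖x - y‖ₑ ^ 2 + Wt k h y := by
  rw [enorm_cost_eq k h hh, enorm_cost_eq k h hh]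
  exact ENNReal.ofReal_le_ofReal (Fr_min k h x y hy)

lemma measurable_Tmap (k : ℕ) (h : ℝ) : Measurable (Tmap k h) := by
  unfold Tmap
  refine Measurable.ite ?_ measurable_const (Measurable.ite ?_ measurable_const measurable_const)
  · exact measurableSet_lt ((meas_coord k 0).abs)
      (measurable_const.sub (measurable_const.mul (meas_coord k 1)))
  · exact measurableSet_lt (meas_coord k 0) measurable_const

lemma measurable_Wt (k : ℕ) (h : ℝ) : Measurable (Wt k h) := by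
  unfold Wt wR
  refine ENNReal.measurable_ofReal.comp ?_
  exact Measurable.ite (measurableSet_singleton _) measurable_const measurable_const

lemma measurableSet_Aset (k : ℕ) (h : ℝ) : MeasurableSet (Aset k h) := by
  unfold Aset
  exact (Set.toFinite _).measurableSet

/-! ### Volumes of boxes -/

lemma measurableSet_Q (k : ℕ) : MeasurableSet (Q k) := by
  have : Q k = ⋂ i, {x : Ek k | |x i| ≤ 1} := by ext x; simp [Q]
  rw [this]
  exact MeasurableSet.iInter fun i => measurableSet_le ((meas_coord k i).abs) measurable_const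

lemma vol_box (k : ℕ) (s : Fin (k + 2) → Set ℝ) (hs : ∀ i, MeasurableSet (s i)) :
    volume {x : Ek k | ∀ i, x i ∈ s i} = ∏ i, volume (s i) := by
  have h := (PiLp.volume_preserving_ofLp (Fin (k + 2))).measure_preimage
    (MeasurableSet.univ_pi hs).nullMeasurableSet
  rw [volume_pi_pi] at h
  rw [← h]
  congr 1
  ext x
  simp [Set.mem_pi]

/-- Coordinate sets of a box with two special coordinates. -/
def bx (k : ℕ) (S0 S1 : Set ℝ) (i : Fin (k + 2)) : Set ℝ :=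
  if i = 0 then S0 else if i = 1 then S1 else Set.Icc (-1) 1

/-- The box `{x₀ ∈ S0, x₁ ∈ S1}` inside the cube. -/
def box (k : ℕ) (S0 S1 : Set ℝ) : Set (Ek k) := {x | x 0 ∈ S0 ∧ x 1 ∈ S1 ∧ x ∈ Q k}

lemma mem_Q_iff (k : ℕ) (x : Ek k) : x ∈ Q k ↔ ∀ i, x i ∈ Set.Icc (-1 : ℝ) 1 := by
  simp [Q, abs_le]

lemma box_eq (k : ℕ) (S0 S1 : Set ℝ) (h0 : S0 ⊆ Set.Icc (-1) 1) (h1 : S1 ⊆ Set.Icc (-1) 1) :
    box k S0 S1 = {x : Ek k | ∀ i, x i ∈ bx k S0 S1 i} := by
  ext x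
  simp only [box, Set.mem_setOf_eq, mem_Q_iff]
  constructor
  · rintro ⟨hx0, hx1, hq⟩ i
    unfold bx
    split_ifs with e0 e1
    · subst e0; exact hx0
    · subst e1; exact hx1
    · exact hq i
  · intro hx
    have hx0 : x 0 ∈ S0 := by simpa [bx] using hx 0
    have hx1 : x 1 ∈ S1 := by simpa [bx] using hx 1
    refine ⟨hx0, hx1, fun i => ?_⟩
    have := hx i
    unfold bx at this
    split_ifs at this with e0 e1
    · subst e0; exact h0 hx0
    · subst e1; exact h1 hx1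
    · exact this

lemma box_subset_Q (k : ℕ) (S0 S1 : Set ℝ) : box k S0 S1 ⊆ Q k := fun x hx => hx.2.2

lemma prod_bx (k : ℕ) (S0 S1 : Set ℝ) :
    ∏ i, volume (bx k S0 S1 i) = volume S0 * volume S1 * 2 ^ k := by
  rw [Fin.prod_univ_succ, Fin.prod_univ_succ]
  have h0 : bx k S0 S1 0 = S0 := by simp [bx]
  have h1 : bx k S0 S1 (Fin.succ 0) = S1 := by simp [bx]
  have h2 : ∀ i : Fin k, bx k S0 S1 i.succ.succ = Set.Icc (-1) 1 := by
    intro i
    have e0 : (i.succ.succ : Fin (k + 2)) ≠ 0 := Fin.succ_ne_zero _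
    have e1 : (i.succ.succ : Fin (k + 2)) ≠ 1 := by
      intro h
      have := congrArg Fin.val h
      simp at this
    simp [bx, e0, e1]
  rw [h0, h1]
  simp only [h2, Real.volume_Icc]
  rw [Finset.prod_const, Finset.card_univ, Fintype.card_fin]
  norm_num
  ring

lemma vol_box2 (k : ℕ) (S0 S1 : Set ℝ) (hm0 : MeasurableSet S0) (hm1 : MeasurableSet S1)
    (h0 : S0 ⊆ Set.Icc (-1) 1) (h1 : S1 ⊆ Set.Icc (-1) 1) :
    volume (box k S0 S1) = volume S0 * volume S1 * 2 ^ k := by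
  rw [box_eq k S0 S1 h0 h1, vol_box, prod_bx]
  intro i
  unfold bx
  split_ifs
  · exact hm0
  · exact hm1
  · exact measurableSet_Icc

lemma Q_eq_box (k : ℕ) : Q k = box k (Set.Icc (-1) 1) (Set.Icc (-1) 1) := by
  ext x
  simp only [box, Set.mem_setOf_eq]
  constructor
  · intro hx
    exact ⟨(mem_Q_iff k x).1 hx 0, (mem_Q_iff k x).1 hx 1, hx⟩
  · intro hx; exact hx.2.2

lemma vol_Q (k : ℕ) : volume (Q k) = 4 * 2 ^ k := by
  rw [Q_eq_box, vol_box2 k _ _ measurableSet_Icc measurableSet_Icc subset_rfl subset_rfl,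
    Real.volume_Icc]
  norm_num

/-- The uniform probability measure on the cube. -/
noncomputable abbrev rho (k : ℕ) : Measure (Ek k) := uniformProbOn (Q k)

lemma rho_apply (k : ℕ) (S : Set (Ek k)) (hS : S ⊆ Q k) :
    rho k S = (volume (Q k))⁻¹ * volume S := by
  unfold rho uniformProbOn
  rw [Measure.smul_apply, Measure.restrict_apply' (measurableSet_Q k), Set.inter_eq_left.2 hS,
    smul_eq_mul]

lemma rho_box (k : ℕ) (S0 S1 : Set ℝ) (hm0 : MeasurableSet S0) (hm1 : MeasurableSet S1)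
    (h0 : S0 ⊆ Set.Icc (-1) 1) (h1 : S1 ⊆ Set.Icc (-1) 1) :
    rho k (box k S0 S1) = volume S0 * volume S1 / 4 := by
  rw [rho_apply k _ (box_subset_Q k S0 S1), vol_Q, vol_box2 k S0 S1 hm0 hm1 h0 h1]
  have hc0 : (4 * 2 ^ k : ℝ≥0∞) ≠ 0 := by positivity
  have hct : (4 * 2 ^ k : ℝ≥0∞) ≠ ∞ := by
    exact ENNReal.mul_ne_top (by norm_num) (ENNReal.pow_ne_top (by norm_num))
  have key : volume S0 * volume S1 * 2 ^ k = (4 * 2 ^ k) * (volume S0 * volume S1 / 4) := by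
    have : volume S0 * volume S1 / 4 * 4 = volume S0 * volume S1 :=
      ENNReal.div_mul_cancel (by norm_num) (by norm_num)
    calc volume S0 * volume S1 * 2 ^ k = (volume S0 * volume S1 / 4 * 4) * 2 ^ k := by rw [this]
      _ = (4 * 2 ^ k) * (volume S0 * volume S1 / 4) := by ring
  rw [key, ENNReal.inv_mul_cancel_left hc0 hct]

instance rho_prob (k : ℕ) : IsProbabilityMeasure (rho k) := by
  constructor
  have h : rho k (Q k) = 1 := by
    rw [rho_apply k _ subset_rfl, vol_Q]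
    exact ENNReal.inv_mul_cancel (by positivity)
      (ENNReal.mul_ne_top (by norm_num) (ENNReal.pow_ne_top (by norm_num)))
  have h2 : rho k Set.univ = rho k (Q k) := by
    unfold rho uniformProbOn
    rw [Measure.smul_apply, Measure.smul_apply, Measure.restrict_apply MeasurableSet.univ,
      Measure.restrict_apply (measurableSet_Q k)]
    simp
  rw [h2, h]

lemma rho_ae_mem_Q (k : ℕ) : ∀ᵐ x ∂(rho k), x ∈ Q k := by
  unfold rho uniformProbOn
  refine Measure.ae_smul_measure ?_ _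
  exact ae_restrict_mem (measurableSet_Q k)

/-! ### The reflection -/

/-- The reflection `x₁ ↦ -x₁`. -/
noncomputable def Rf (k : ℕ) : Ek k ≃ₗᵢ[ℝ] Ek k :=
  LinearIsometryEquiv.piLpCongrRight 2
    (fun i : Fin (k + 2) =>
      if i = 1 then LinearIsometryEquiv.neg ℝ else LinearIsometryEquiv.refl ℝ ℝ)

lemma Rf_apply (k : ℕ) (x : Ek k) (i : Fin (k + 2)) :
    (Rf k x) i = if i = 1 then - x i else x i := by
  unfold Rf
  rw [LinearIsometryEquiv.piLpCongrRight_apply]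
  show (if i = 1 then LinearIsometryEquiv.neg ℝ else LinearIsometryEquiv.refl ℝ ℝ) (x i) = _
  split_ifs with h <;> simp

lemma Rf_Rf (k : ℕ) (x : Ek k) : Rf k (Rf k x) = x := by
  ext i
  rw [Rf_apply, Rf_apply]
  split_ifs <;> simp

lemma Rf_mem_Q (k : ℕ) (x : Ek k) : Rf k x ∈ Q k ↔ x ∈ Q k := by
  simp only [Q, Set.mem_setOf_eq, Rf_apply]
  constructor
  · intro h i
    have := h i
    split_ifs at this
    · simpa using this
    · exact this
  · intro h i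
    have := h i
    split_ifs
    · simpa using this
    · exact this

lemma Rf_preimage_Q (k : ℕ) : (Rf k) ⁻¹' (Q k) = Q k := by
  ext x; exact Rf_mem_Q k x

lemma measurable_Rf (k : ℕ) : Measurable (Rf k) := (Rf k).continuous.measurable

lemma rho_map_Rf (k : ℕ) : (rho k).map (Rf k) = rho k := by
  unfold rho uniformProbOn
  rw [Measure.map_smul]
  congr 1
  have h := ((Rf k).measurePreserving).restrict_preimage (measurableSet_Q k)
  rw [Rf_preimage_Q] at h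
  exact h.map_eq

lemma Rf_yL (k : ℕ) : Rf k (yL k) = yL k := by
  ext i
  rw [Rf_apply]
  split_ifs with h
  · subst h; simp [yL]
  · rfl

lemma Rf_yR (k : ℕ) : Rf k (yR k) = yR k := by
  ext i
  rw [Rf_apply]
  split_ifs with h
  · subst h; simp [yR]
  · rfl

lemma Rf_norm_sub (k : ℕ) (x y : Ek k) : ‖x - Rf k y‖ = ‖Rf k x - y‖ := by
  have : x - Rf k y = Rf k (Rf k x - y) := by
    rw [map_sub, Rf_Rf]
  rw [this, LinearIsometryEquiv.norm_map]

lemma Rf_enorm_sub (k : ℕ) (x y : Ek k) : ‖x - Rf k y‖ₑ = ‖Rf k x - y‖ₑ := by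
  rw [← ofReal_norm_eq_enorm, ← ofReal_norm_eq_enorm, Rf_norm_sub]

/-! ### Pushforward of a three-valued map -/

lemma map_eq_sum_dirac {α E : Type*} [MeasurableSpace α] [MeasurableSpace E]
    [MeasurableSingletonClass E] (ρ : Measure α) [IsFiniteMeasure ρ] (T : α → E)
    (hT : Measurable T) (y : Fin 3 → E) (hy : Function.Injective y)
    (hTy : ∀ x, ∃ i, T x = y i) :
    ρ.map T = ∑ i, ENNReal.ofReal ((ρ (T ⁻¹' {y i})).toReal) • Measure.dirac (y i) := by
  ext s hs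
  rw [Measure.map_apply hT hs, Measure.coe_finset_sum, Finset.sum_apply]
  simp only [Measure.smul_apply, smul_eq_mul, Measure.dirac_apply' _ hs]
  have hcover : T ⁻¹' s = ⋃ i, (T ⁻¹' {y i} ∩ T ⁻¹' s) := by
    ext x
    simp only [Set.mem_preimage, Set.mem_iUnion, Set.mem_inter_iff, Set.mem_singleton_iff]
    constructor
    · intro hx
      obtain ⟨i, hi⟩ := hTy x
      exact ⟨i, hi, hx⟩
    · rintro ⟨i, _, hx⟩
      exact hx
  have hdisj : Pairwise (Function.onFun Disjoint (fun i => T ⁻¹' {y i} ∩ T ⁻¹' s)) := by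
    intro i j hij
    refine Set.disjoint_left.2 ?_
    rintro x ⟨hxi, _⟩ ⟨hxj, _⟩
    simp only [Set.mem_preimage, Set.mem_singleton_iff] at hxi hxj
    exact hij (hy (hxi.symm.trans hxj))
  rw [hcover, measure_iUnion hdisj
    (fun i => (hT (measurableSet_singleton _)).inter (hT hs)), tsum_fintype]
  refine Finset.sum_congr rfl fun i _ => ?_
  rw [ENNReal.ofReal_toReal (measure_ne_top ρ _)]
  by_cases hi : y i ∈ s
  · have : T ⁻¹' {y i} ∩ T ⁻¹' s = T ⁻¹' {y i} := by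
      ext x
      simp only [Set.mem_inter_iff, Set.mem_preimage, Set.mem_singleton_iff]
      constructor
      · exact fun h => h.1
      · intro h; exact ⟨h, by rw [h]; exact hi⟩
    rw [this, Set.indicator_of_mem hi]; simp
  · have : T ⁻¹' {y i} ∩ T ⁻¹' s = ∅ := by
      ext x
      simp only [Set.mem_inter_iff, Set.mem_preimage, Set.mem_singleton_iff,
        Set.mem_empty_iff_false, iff_false]
      rintro ⟨h1, h2⟩
      rw [h1] at h2
      exact hi h2
    rw [this, Set.indicator_of_notMem hi]; simp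

/-! ### Cells and boxes -/

lemma measurableSet_box (k : ℕ) (S0 S1 : Set ℝ) (hm0 : MeasurableSet S0) (hm1 : MeasurableSet S1) :
    MeasurableSet (box k S0 S1) := by
  have : box k S0 S1 = (fun x : Ek k => x 0) ⁻¹' S0 ∩ ((fun x : Ek k => x 1) ⁻¹' S1 ∩ Q k) := by
    ext x; simp [box]
  rw [this]
  exact ((meas_coord k 0) hm0).inter (((meas_coord k 1) hm1).inter (measurableSet_Q k))

lemma Tmap_eq_yM_iff (k : ℕ) (h : ℝ) (x : Ek k) :
    Tmap k h x = yM k h ↔ |x 0| < 2 * h - h * x 1 := by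
  unfold Tmap
  constructor
  · intro hx
    by_contra hc
    rw [if_neg hc] at hx
    split_ifs at hx
    · exact yL_ne_yM k h hx
    · exact yR_ne_yM k h hx
  · intro hx; rw [if_pos hx]

/-- The middle cell contains a box. -/
lemma box_mid_subset (k : ℕ) (h : ℝ) (hh : 0 ≤ h) :
    box k (Set.Ioo (-h) h) (Set.Icc (-1) 1) ⊆ (Tmap k h) ⁻¹' {yM k h} := by
  rintro x ⟨hx0, hx1, _⟩
  simp only [Set.mem_preimage, Set.mem_singleton_iff, Tmap_eq_yM_iff]
  have h1 : |x 0| < h := abs_lt.2 ⟨hx0.1, hx0.2⟩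
  have h2 : h * x 1 ≤ h * 1 := mul_le_mul_of_nonneg_left hx1.2 hh
  linarith

/-- The left cell contains a box. -/
lemma box_left_subset (k : ℕ) (h : ℝ) (hh : 0 < h) :
    box k (Set.Icc (-1) (-(3 * h))) (Set.Icc (-1) 1) ⊆ (Tmap k h) ⁻¹' {yL k} := by
  rintro x ⟨hx0, hx1, _⟩
  simp only [Set.mem_preimage, Set.mem_singleton_iff]
  have hneg : x 0 < 0 := by linarith [hx0.2]
  have h2 : h * (-1) ≤ h * x 1 := mul_le_mul_of_nonneg_left hx1.1 hh.le
  have h1 : ¬ |x 0| < 2 * h - h * x 1 := by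
    rw [abs_of_neg hneg]; linarith [hx0.2]
  unfold Tmap
  rw [if_neg h1, if_pos hneg]

/-- The right cell contains a box. -/
lemma box_right_subset (k : ℕ) (h : ℝ) (hh : 0 < h) :
    box k (Set.Icc (3 * h) 1) (Set.Icc (-1) 1) ⊆ (Tmap k h) ⁻¹' {yR k} := by
  rintro x ⟨hx0, hx1, _⟩
  simp only [Set.mem_preimage, Set.mem_singleton_iff]
  have hpos : ¬ x 0 < 0 := by linarith [hx0.1]
  have h2 : h * (-1) ≤ h * x 1 := mul_le_mul_of_nonneg_left hx1.1 hh.le
  have h1 : ¬ |x 0| < 2 * h - h * x 1 := by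
    rw [abs_of_nonneg (not_lt.1 hpos)]; linarith [hx0.1]
  unfold Tmap
  rw [if_neg h1, if_neg hpos]

/-- The middle cell, inside the cube, is contained in a thin box. -/
lemma mid_cell_subset (k : ℕ) (h : ℝ) (hh : 0 ≤ h) (hh1 : 3 * h ≤ 1) :
    (Tmap k h) ⁻¹' {yM k h} ∩ Q k ⊆ box k (Set.Ioo (-(3 * h)) (3 * h)) (Set.Icc (-1) 1) := by
  rintro x ⟨hx, hq⟩
  simp only [Set.mem_preimage, Set.mem_singleton_iff, Tmap_eq_yM_iff] at hx
  have hq1 := (mem_Q_iff k x).1 hq 1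
  have h2 : h * (-1) ≤ h * x 1 := mul_le_mul_of_nonneg_left hq1.1 hh
  have h3 : |x 0| < 3 * h := by linarith
  exact ⟨⟨(abs_lt.1 h3).1, (abs_lt.1 h3).2⟩, hq1, hq⟩

lemma rho_mid_pos (k : ℕ) (h : ℝ) (hh : 0 < h) (hh1 : h ≤ 1) :
    0 < rho k ((Tmap k h) ⁻¹' {yM k h}) := by
  refine lt_of_lt_of_le ?_ (measure_mono (box_mid_subset k h hh.le))
  rw [rho_box k _ _ measurableSet_Ioo measurableSet_Icc
    (fun t ht => ⟨by linarith [ht.1], by linarith [ht.2]⟩) subset_rfl,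
    Real.volume_Ioo, Real.volume_Icc]
  refine ENNReal.div_pos ?_ (by norm_num)
  refine mul_ne_zero ?_ ?_
  · rw [Ne, ENNReal.ofReal_eq_zero]; linarith
  · rw [Ne, ENNReal.ofReal_eq_zero]; norm_num

lemma rho_left_pos (k : ℕ) (h : ℝ) (hh : 0 < h) (hh1 : 3 * h < 1) :
    0 < rho k ((Tmap k h) ⁻¹' {yL k}) := by
  refine lt_of_lt_of_le ?_ (measure_mono (box_left_subset k h hh))
  rw [rho_box k _ _ measurableSet_Icc measurableSet_Icc
    (fun t ht => ⟨ht.1, by linarith [ht.2]⟩) subset_rfl,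
    Real.volume_Icc, Real.volume_Icc]
  refine ENNReal.div_pos ?_ (by norm_num)
  refine mul_ne_zero ?_ ?_
  · rw [Ne, ENNReal.ofReal_eq_zero]; linarith
  · rw [Ne, ENNReal.ofReal_eq_zero]; norm_num

lemma rho_right_pos (k : ℕ) (h : ℝ) (hh : 0 < h) (hh1 : 3 * h < 1) :
    0 < rho k ((Tmap k h) ⁻¹' {yR k}) := by
  refine lt_of_lt_of_le ?_ (measure_mono (box_right_subset k h hh))
  rw [rho_box k _ _ measurableSet_Icc measurableSet_Icc
    (fun t ht => ⟨by linarith [ht.1], ht.2⟩) subset_rfl,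
    Real.volume_Icc, Real.volume_Icc]
  refine ENNReal.div_pos ?_ (by norm_num)
  refine mul_ne_zero ?_ ?_
  · rw [Ne, ENNReal.ofReal_eq_zero]; linarith
  · rw [Ne, ENNReal.ofReal_eq_zero]; norm_num

lemma rho_mid_le (k : ℕ) (h : ℝ) (hh : 0 ≤ h) (hh1 : 3 * h ≤ 1) :
    rho k ((Tmap k h) ⁻¹' {yM k h}) ≤ ENNReal.ofReal (3 * h) := by
  have h1 : rho k ((Tmap k h) ⁻¹' {yM k h}) ≤ rho k ((Tmap k h) ⁻¹' {yM k h} ∩ Q k) := by
    refine measure_mono_ae ?_
    filter_upwards [rho_ae_mem_Q k] with x hx hx2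
    exact ⟨hx2, hx⟩
  refine h1.trans ((measure_mono (mid_cell_subset k h hh hh1)).trans ?_)
  rw [rho_box k _ _ measurableSet_Ioo measurableSet_Icc
    (fun t ht => ⟨by linarith [ht.1], by linarith [ht.2]⟩) subset_rfl,
    Real.volume_Ioo, Real.volume_Icc]
  have e1 : (3 * h - -(3 * h)) = (3 * h) * 2 := by ring
  have e2 : ((1 : ℝ) - -1) = 2 := by norm_num
  rw [e1, e2, ENNReal.ofReal_mul (by positivity), ENNReal.ofReal_ofNat]
  have : ENNReal.ofReal (3 * h) * 2 * 2 / 4 = ENNReal.ofReal (3 * h) := by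
    rw [mul_assoc]
    have h4 : (2 : ℝ≥0∞) * 2 = 4 := by norm_num
    rw [h4]
    exact ENNReal.mul_div_cancel_right (by norm_num) (by norm_num)
  rw [this]

/-- The test box. -/
def Bx (k : ℕ) (h : ℝ) : Set (Ek k) := box k (Set.Ioo (3 * h / 2) (5 * h / 2)) (Set.Icc (1 / 2) 1)

lemma measurableSet_Bx (k : ℕ) (h : ℝ) : MeasurableSet (Bx k h) :=
  measurableSet_box k _ _ measurableSet_Ioo measurableSet_Icc

lemma rho_Bx (k : ℕ) (h : ℝ) (hh : 0 < h) (hh1 : h ≤ 1 / 4) :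
    rho k (Bx k h) = ENNReal.ofReal (h / 8) := by
  unfold Bx
  rw [rho_box k _ _ measurableSet_Ioo measurableSet_Icc
    (fun t ht => ⟨by linarith [ht.1], by linarith [ht.2]⟩)
    (fun t ht => ⟨by linarith [ht.1], ht.2⟩),
    Real.volume_Ioo, Real.volume_Icc]
  have e1 : (5 * h / 2 - 3 * h / 2) = h := by ring
  have e2 : ((1 : ℝ) - 1 / 2) = 1 / 2 := by norm_num
  rw [e1, e2, ← ENNReal.ofReal_mul hh.le]
  have h4 : (4 : ℝ≥0∞) = ENNReal.ofReal 4 := by norm_num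
  rw [h4, ← ENNReal.ofReal_div_of_pos (by norm_num)]
  congr 1
  ring

/-! ### The measures, the maps and the coupling -/

/-- The first target measure. -/
noncomputable def muM (k : ℕ) (h : ℝ) : Measure (Ek k) := (rho k).map (Tmap k h)

/-- The second target measure: the mirror image of the first. -/
noncomputable def nuM (k : ℕ) (h : ℝ) : Measure (Ek k) := (muM k h).map (Rf k)

/-- The reflected Laguerre map. -/
noncomputable def Tmap' (k : ℕ) (h : ℝ) (x : Ek k) : Ek k := Rf k (Tmap k h (Rf k x))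

lemma measurable_Tmap' (k : ℕ) (h : ℝ) : Measurable (Tmap' k h) :=
  (measurable_Rf k).comp ((measurable_Tmap k h).comp (measurable_Rf k))

lemma nuM_eq (k : ℕ) (h : ℝ) : nuM k h = (rho k).map (Tmap' k h) := by
  have h1 : (rho k).map (Tmap' k h) = ((rho k).map (Rf k)).map (Rf k ∘ Tmap k h) := by
    rw [Measure.map_map ((measurable_Rf k).comp (measurable_Tmap k h)) (measurable_Rf k)]
    rfl
  rw [h1, rho_map_Rf, nuM, muM, Measure.map_map (measurable_Rf k) (measurable_Tmap k h)]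

lemma finite_Aset (k : ℕ) (h : ℝ) : (Aset k h).Finite := by
  unfold Aset
  exact Set.toFinite _

lemma norm_sq_le_of_mem_Q (k : ℕ) (x : Ek k) (hx : x ∈ Q k) : ‖x‖ ^ 2 ≤ (k : ℝ) + 2 := by
  rw [EuclideanSpace.real_norm_sq_eq]
  calc ∑ i, x i ^ 2 ≤ ∑ i : Fin (k + 2), (1 : ℝ) := by
        refine Finset.sum_le_sum fun i _ => ?_
        have := hx i
        rw [← sq_abs]
        exact pow_le_one₀ (abs_nonneg _) this
    _ = (k : ℝ) + 2 := by simp

lemma norm_atom_le (k : ℕ) (h : ℝ) (hh : |h| ≤ 1) (y : Ek k) (hy : y ∈ Aset k h) : ‖y‖ ≤ 1 := by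
  rcases hy with rfl | rfl | rfl
  · simp [yL]
  · simpa [yM] using hh
  · simp [yR]

lemma lintegral_cost_fin (k : ℕ) (g : Ek k → Ek k) (hg : ∀ x, ‖g x‖ ≤ 1) :
    ∫⁻ x, ‖x - g x‖ₑ ^ 2 ∂(rho k) ≠ ∞ := by
  have hb : ∀ᵐ x ∂(rho k), ‖x - g x‖ₑ ^ 2 ≤ ENNReal.ofReal (2 * ((k : ℝ) + 2) + 2) := by
    filter_upwards [rho_ae_mem_Q k] with x hx
    rw [← ofReal_norm_eq_enorm, ← ENNReal.ofReal_pow (norm_nonneg _)]
    apply ENNReal.ofReal_le_ofReal
    have h1 := norm_sq_le_of_mem_Q k x hx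
    have h2 := hg x
    have h3 : ‖x - g x‖ ≤ ‖x‖ + ‖g x‖ := norm_sub_le _ _
    have h4 : ‖x - g x‖ ^ 2 ≤ (‖x‖ + ‖g x‖) ^ 2 := pow_le_pow_left₀ (norm_nonneg _) h3 2
    have h5 : ‖g x‖ ^ 2 ≤ 1 := pow_le_one₀ (norm_nonneg _) h2
    nlinarith [sq_nonneg (‖x‖ - ‖g x‖)]
  refine ne_of_lt (lt_of_le_of_lt (lintegral_mono_ae hb) ?_)
  rw [lintegral_const]
  simp

lemma Wt_le (k : ℕ) (h : ℝ) (y : Ek k) : Wt k h y ≤ ENNReal.ofReal (1 + |4 * h + h ^ 2|) := by
  unfold Wt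
  apply ENNReal.ofReal_le_ofReal
  unfold wR
  split_ifs
  · linarith [abs_nonneg (4 * h + h ^ 2)]
  · linarith [le_abs_self (4 * h + h ^ 2)]

lemma lintegral_Wt_fin (k : ℕ) (h : ℝ) (g : Ek k → Ek k) :
    ∫⁻ x, Wt k h (g x) ∂(rho k) ≠ ∞ := by
  refine ne_of_lt (lt_of_le_of_lt (lintegral_mono (fun x => Wt_le k h (g x))) ?_)
  rw [lintegral_const]
  simp

lemma optimal_Tmap (k : ℕ) (h : ℝ) (hh : 0 ≤ h) :
    IsOptimalMap (rho k) (muM k h) (Tmap k h) :=
  laguerre_optimal (rho k) (Wt k h) (measurable_Wt k h) (Tmap k h) (measurable_Tmap k h)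
    (Aset k h) (measurableSet_Aset k h) (Tmap_mem k h) (fun x y hy => Tmap_min k h hh x y hy)
    (lintegral_Wt_fin k h _)

lemma Tmap'_mem (k : ℕ) (h : ℝ) (x : Ek k) : Tmap' k h x ∈ (Rf k) '' (Aset k h) :=
  ⟨Tmap k h (Rf k x), Tmap_mem k h _, rfl⟩

lemma Tmap'_min (k : ℕ) (h : ℝ) (hh : 0 ≤ h) (x y : Ek k) (hy : y ∈ (Rf k) '' (Aset k h)) :
    ‖x - Tmap' k h x‖ₑ ^ 2 + Wt k h (Rf k (Tmap' k h x)) ≤ ‖x - y‖ₑ ^ 2 + Wt k h (Rf k y) := by
  obtain ⟨y, hy, rfl⟩ := hy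
  unfold Tmap'
  rw [Rf_Rf, Rf_Rf, Rf_enorm_sub, Rf_enorm_sub]
  exact Tmap_min k h hh (Rf k x) y hy

lemma optimal_Tmap' (k : ℕ) (h : ℝ) (hh : 0 ≤ h) :
    IsOptimalMap (rho k) (nuM k h) (Tmap' k h) := by
  rw [nuM_eq]
  exact laguerre_optimal (rho k) (fun y => Wt k h (Rf k y))
    ((measurable_Wt k h).comp (measurable_Rf k)) (Tmap' k h) (measurable_Tmap' k h)
    ((Rf k) '' (Aset k h)) ((finite_Aset k h).image _).measurableSet (Tmap'_mem k h)
    (fun x y hy => Tmap'_min k h hh x y hy) (lintegral_Wt_fin k h _)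

lemma Fr_nonneg (k : ℕ) (h : ℝ) (hh : 0 ≤ h) (x y : Ek k) : 0 ≤ Fr k h x y := by
  unfold Fr
  have := wR_nonneg k h hh y
  positivity

/-- On the test box the only minimiser for the first measure is `yR`. -/
lemma unique_min_mu (k : ℕ) (h : ℝ) (hh : 0 < h) (x : Ek k) (hx : x ∈ Bx k h) (y : Ek k)
    (hy : y ∈ Aset k h)
    (he : ‖x - y‖ₑ ^ 2 + Wt k h y = ‖x - Tmap k h x‖ₑ ^ 2 + Wt k h (Tmap k h x)) :
    y = yR k := by
  obtain ⟨hx0, hx1, hq⟩ := hx
  rw [enorm_cost_eq k h hh.le, enorm_cost_eq k h hh.le,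
    ENNReal.ofReal_eq_ofReal_iff (Fr_nonneg k h hh.le _ _) (Fr_nonneg k h hh.le _ _)] at he
  have hm := mul_le_mul_of_nonneg_left hx1.1 hh.le
  have hT : Tmap k h x = yR k := by
    have h1 : ¬ |x 0| < 2 * h - h * x 1 := by
      rw [abs_of_pos (by linarith [hx0.1])]; linarith [hx0.1]
    unfold Tmap
    rw [if_neg h1, if_neg (by linarith [hx0.1])]
  rw [hT, Fr_yR] at he
  rcases hy with rfl | rfl | rfl
  · rw [Fr_yL] at he; exfalso; linarith [hx0.1]
  · rw [Fr_yM] at he; exfalso; linarith [hx0.1]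
  · rfl

/-- On the test box the only minimiser for the mirrored problem is `yM`. -/
lemma unique_min_nu (k : ℕ) (h : ℝ) (hh : 0 < h) (x : Ek k) (hx : x ∈ Bx k h) (y : Ek k)
    (hy : y ∈ Aset k h)
    (he : ‖Rf k x - y‖ₑ ^ 2 + Wt k h y
      = ‖Rf k x - Tmap k h (Rf k x)‖ₑ ^ 2 + Wt k h (Tmap k h (Rf k x))) :
    y = yM k h := by
  obtain ⟨hx0, hx1, hq⟩ := hx
  rw [enorm_cost_eq k h hh.le, enorm_cost_eq k h hh.le,
    ENNReal.ofReal_eq_ofReal_iff (Fr_nonneg k h hh.le _ _) (Fr_nonneg k h hh.le _ _)] at he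
  have hm := mul_le_mul_of_nonneg_left hx1.1 hh.le
  have z0 : (Rf k x) 0 = x 0 := by
    rw [Rf_apply, if_neg (by simp)]
  have z1 : (Rf k x) 1 = - x 1 := by
    rw [Rf_apply, if_pos rfl]
  have hT : Tmap k h (Rf k x) = yM k h := by
    rw [Tmap_eq_yM_iff, z0, z1, abs_of_pos (by linarith [hx0.1])]
    linarith [hx0.2]
  rw [hT, Fr_yM] at he
  rcases hy with rfl | rfl | rfl
  · rw [Fr_yL, z0, z1] at he; exfalso; linarith [hx0.1]
  · rfl
  · rw [Fr_yR, z0, z1] at he; exfalso; linarith [hx0.2]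

lemma enorm_sq_diff_ge (k : ℕ) (h : ℝ) : (1 : ℝ≥0∞) ≤ ‖yR k - Rf k (yM k h)‖ₑ ^ 2 := by
  have h1 : (yR k - Rf k (yM k h)) 0 = 1 := by
    show (yR k) 0 - (Rf k (yM k h)) 0 = 1
    rw [Rf_apply, if_neg (by simp)]
    simp [yR, yM]
  have h2 : (1 : ℝ) ≤ ‖yR k - Rf k (yM k h)‖ := by
    have := PiLp.norm_apply_le (yR k - Rf k (yM k h)) 0
    rw [h1] at this
    simpa using this
  rw [← ofReal_norm_eq_enorm, ← ENNReal.ofReal_pow (norm_nonneg _)]
  have h3 : (1 : ℝ) ≤ ‖yR k - Rf k (yM k h)‖ ^ 2 := by nlinarith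
  calc (1 : ℝ≥0∞) = ENNReal.ofReal 1 := by simp
    _ ≤ _ := ENNReal.ofReal_le_ofReal h3

/-- The coupling. -/
noncomputable def piM (k : ℕ) (h : ℝ) : Measure (Ek k × Ek k) :=
  (muM k h).map (fun y => (y, Rf k y))

lemma measurable_pair (k : ℕ) : Measurable (fun y : Ek k => (y, Rf k y)) :=
  measurable_id.prodMk (measurable_Rf k)

lemma coupling_piM (k : ℕ) (h : ℝ) : IsPairCoupling (muM k h) (nuM k h) (piM k h) := by
  constructor
  · unfold piM
    rw [Measure.map_map measurable_fst (measurable_pair k)]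
    exact Measure.map_id
  · unfold piM nuM
    rw [Measure.map_map measurable_snd (measurable_pair k)]
    rfl

lemma enorm_yM_sub (k : ℕ) (h : ℝ) :
    ‖yM k h - Rf k (yM k h)‖ₑ ^ 2 = ENNReal.ofReal (4 * h ^ 2) := by
  have e : Rf k (yM k h) = EuclideanSpace.single 1 h := by
    ext i
    rw [Rf_apply]
    by_cases hi : i = 1
    · subst hi; simp [yM]
    · simp [yM, hi]
  rw [e, ← ofReal_norm_eq_enorm, ← ENNReal.ofReal_pow (norm_nonneg _), norm_sub_single_sq]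
  congr 1
  have : ‖yM k h‖ ^ 2 = h ^ 2 := by simp [yM]
  rw [this]
  simp [yM]
  ring

lemma quadCost_piM_le (k : ℕ) (h : ℝ) (hh : 0 ≤ h) (hh1 : 3 * h ≤ 1) :
    quadCost (piM k h) ≤ ENNReal.ofReal (12 * h ^ 3) := by
  have hcm : Measurable (fun p : Ek k × Ek k => ‖p.1 - p.2‖ₑ ^ 2) :=
    ((measurable_fst.sub measurable_snd).enorm).pow_const 2
  unfold quadCost piM muM
  have hcm2 : Measurable (fun y : Ek k => ‖y - Rf k y‖ₑ ^ 2) :=
    ((measurable_id.sub (measurable_Rf k)).enorm).pow_const 2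
  rw [lintegral_map hcm (measurable_pair k)]
  show ∫⁻ a, ‖a - Rf k a‖ₑ ^ 2 ∂Measure.map (Tmap k h) (rho k) ≤ _
  rw [lintegral_map hcm2 (measurable_Tmap k h)]
  have hpt : ∀ x, ‖Tmap k h x - Rf k (Tmap k h x)‖ₑ ^ 2 ≤
      Set.indicator ((Tmap k h) ⁻¹' {yM k h}) (fun _ => ENNReal.ofReal (4 * h ^ 2)) x := by
    intro x
    by_cases hx : Tmap k h x = yM k h
    · rw [Set.indicator_of_mem (by simpa using hx), hx, enorm_yM_sub]
    · rw [Set.indicator_of_notMem (by simpa using hx)]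
      have hmem := Tmap_mem k h x
      rcases hmem with e | e | e
      · rw [e, Rf_yL]; simp
      · exact absurd e hx
      · rw [e, Rf_yR]; simp
  calc ∫⁻ x, ‖Tmap k h x - Rf k (Tmap k h x)‖ₑ ^ 2 ∂(rho k)
      ≤ ∫⁻ x, Set.indicator ((Tmap k h) ⁻¹' {yM k h})
          (fun _ => ENNReal.ofReal (4 * h ^ 2)) x ∂(rho k) := lintegral_mono hpt
    _ = ENNReal.ofReal (4 * h ^ 2) * rho k ((Tmap k h) ⁻¹' {yM k h}) :=
        lintegral_indicator_const ((measurable_Tmap k h) (measurableSet_singleton _)) _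
    _ ≤ ENNReal.ofReal (4 * h ^ 2) * ENNReal.ofReal (3 * h) := by
        gcongr
        exact rho_mid_le k h hh hh1
    _ = ENNReal.ofReal (12 * h ^ 3) := by
        rw [← ENNReal.ofReal_mul (by positivity)]
        congr 1
        ring

/-! ### Assembly -/

lemma atom_mem_Q (k : ℕ) (h : ℝ) (hh : |h| ≤ 1) (y : Ek k) (hy : y ∈ Aset k h) : y ∈ Q k := by
  rcases hy with rfl | rfl | rfl
  · intro i
    simp only [yL, PiLp.single_apply]
    split_ifs <;> norm_num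
  · intro i
    simp only [yM, PiLp.single_apply]
    split_ifs
    · simpa using hh
    · norm_num
  · intro i
    simp only [yR, PiLp.single_apply]
    split_ifs <;> norm_num

lemma prob_muM (k : ℕ) (h : ℝ) (hh : |h| ≤ 1) : IsProbabilityOn (Q k) (muM k h) := by
  refine ⟨Measure.isProbabilityMeasure_map (measurable_Tmap k h).aemeasurable, ?_⟩
  unfold muM
  rw [Measure.map_apply (measurable_Tmap k h) (measurableSet_Q k).compl]
  have : (Tmap k h) ⁻¹' (Q k)ᶜ = ∅ := by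
    ext x
    simp [atom_mem_Q k h hh _ (Tmap_mem k h x)]
  rw [this]
  exact measure_empty

lemma prob_nuM (k : ℕ) (h : ℝ) (hh : |h| ≤ 1) : IsProbabilityOn (Q k) (nuM k h) := by
  have hμ := prob_muM k h hh
  have := hμ.1
  refine ⟨Measure.isProbabilityMeasure_map (measurable_Rf k).aemeasurable, ?_⟩
  unfold nuM
  rw [Measure.map_apply (measurable_Rf k) (measurableSet_Q k).compl]
  have : (Rf k) ⁻¹' (Q k)ᶜ = (Q k)ᶜ := by rw [Set.preimage_compl, Rf_preimage_Q]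
  rw [this]
  exact hμ.2

lemma injective_three {α : Type*} {a b c : α} (hab : a ≠ b) (hac : a ≠ c) (hbc : b ≠ c) :
    Function.Injective ![a, b, c] := by
  have hba := hab.symm
  have hca := hac.symm
  have hcb := hbc.symm
  intro i j hij
  fin_cases i <;> fin_cases j <;> simp_all

lemma atoms_injective (k : ℕ) (h : ℝ) : Function.Injective ![yL k, yM k h, yR k] :=
  injective_three (yL_ne_yM k h) (yL_ne_yR k) (yR_ne_yM k h).symm

lemma Tmap_exists (k : ℕ) (h : ℝ) (x : Ek k) : ∃ i, Tmap k h x = ![yL k, yM k h, yR k] i := by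
  rcases Tmap_mem k h x with e | e | e
  · exact ⟨0, by simp [e]⟩
  · exact ⟨1, by simp [e]⟩
  · have e' : Tmap k h x = yR k := e
    exact ⟨2, by simp [e']⟩

lemma rho_cell_pos (k : ℕ) (h : ℝ) (hh : 0 < h) (hh1 : 3 * h < 1) (i : Fin 3) :
    0 < rho k ((Tmap k h) ⁻¹' {![yL k, yM k h, yR k] i}) := by
  fin_cases i
  · exact rho_left_pos k h hh hh1
  · exact rho_mid_pos k h hh (by linarith)
  · exact rho_right_pos k h hh hh1

lemma threeAtomic_muM (k : ℕ) (h : ℝ) (hh : 0 < h) (hh1 : 3 * h < 1) :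
    IsThreeAtomic (muM k h) := by
  refine ⟨![yL k, yM k h, yR k], atoms_injective k h,
    fun i => (rho k ((Tmap k h) ⁻¹' {![yL k, yM k h, yR k] i})).toReal, ?_, ?_⟩
  · intro i
    exact ENNReal.toReal_pos (rho_cell_pos k h hh hh1 i).ne' (measure_ne_top _ _)
  · exact map_eq_sum_dirac (rho k) (Tmap k h) (measurable_Tmap k h) _ (atoms_injective k h)
      (Tmap_exists k h)

lemma threeAtomic_nuM (k : ℕ) (h : ℝ) (hh : 0 < h) (hh1 : 3 * h < 1) :
    IsThreeAtomic (nuM k h) := by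
  have hinj : Function.Injective (fun i => Rf k (![yL k, yM k h, yR k] i)) :=
    (Rf k).injective.comp (atoms_injective k h)
  have hm : Measurable (fun x => Rf k (Tmap k h x)) := (measurable_Rf k).comp (measurable_Tmap k h)
  have hν : nuM k h = (rho k).map (fun x => Rf k (Tmap k h x)) := by
    unfold nuM muM
    rw [Measure.map_map (measurable_Rf k) (measurable_Tmap k h)]
    rfl
  refine ⟨fun i => Rf k (![yL k, yM k h, yR k] i), hinj,
    fun i => (rho k ((fun x => Rf k (Tmap k h x)) ⁻¹'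
      {Rf k (![yL k, yM k h, yR k] i)})).toReal, ?_, ?_⟩
  · intro i
    refine ENNReal.toReal_pos (ne_of_gt ?_) (measure_ne_top _ _)
    refine lt_of_lt_of_le (rho_cell_pos k h hh hh1 i) (measure_mono ?_)
    intro x hx
    simp only [Set.mem_preimage, Set.mem_singleton_iff] at hx ⊢
    rw [hx]
  · rw [hν]
    exact map_eq_sum_dirac (rho k) _ hm _ hinj
      (fun x => by obtain ⟨i, hi⟩ := Tmap_exists k h x; exact ⟨i, by rw [hi]⟩)

lemma lower_bound (k : ℕ) (h : ℝ) (hh : 0 < h) (hh1 : h ≤ 1 / 4) (Tμ Tν : Ek k → Ek k)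
    (hμ : IsOptimalMap (rho k) (muM k h) Tμ) (hν : IsOptimalMap (rho k) (nuM k h) Tν) :
    ENNReal.ofReal (h / 8) ≤ ∫⁻ x, ‖Tμ x - Tν x‖ₑ ^ 2 ∂(rho k) := by
  have habs : |h| ≤ 1 := by rw [abs_of_pos hh]; linarith
  have hA := laguerre_ae_min (rho k) (Wt k h) (measurable_Wt k h) (Tmap k h) (measurable_Tmap k h)
    (Aset k h) (measurableSet_Aset k h) (Tmap_mem k h) (fun x y hy => Tmap_min k h hh.le x y hy)
    (lintegral_Wt_fin k h _)
    (lintegral_cost_fin k _ (fun x => norm_atom_le k h habs _ (Tmap_mem k h x))) Tμ hμ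
  have hν' : IsOptimalMap (rho k) ((rho k).map (Tmap' k h)) Tν := by
    rw [← nuM_eq]; exact hν
  have hnorm' : ∀ x, ‖Tmap' k h x‖ ≤ 1 := by
    intro x
    unfold Tmap'
    rw [LinearIsometryEquiv.norm_map]
    exact norm_atom_le k h habs _ (Tmap_mem k h _)
  have hB := laguerre_ae_min (rho k) (fun y => Wt k h (Rf k y))
    ((measurable_Wt k h).comp (measurable_Rf k)) (Tmap' k h) (measurable_Tmap' k h)
    ((Rf k) '' (Aset k h)) ((finite_Aset k h).image _).measurableSet (Tmap'_mem k h)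
    (fun x y hy => Tmap'_min k h hh.le x y hy) (lintegral_Wt_fin k h _)
    (lintegral_cost_fin k _ hnorm') Tν hν'
  have hpt : ∀ᵐ x ∂(rho k),
      Set.indicator (Bx k h) (fun _ => (1 : ℝ≥0∞)) x ≤ ‖Tμ x - Tν x‖ₑ ^ 2 := by
    filter_upwards [hA, hB] with x hxA hxB
    obtain ⟨hxA, hxe⟩ := hxA
    obtain ⟨hxB, hxe'⟩ := hxB
    by_cases hx : x ∈ Bx k h
    · rw [Set.indicator_of_mem hx]
      have e1 : Tμ x = yR k := unique_min_mu k h hh x hx (Tμ x) hxA hxe
      obtain ⟨y, hy, hye⟩ := hxB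
      have e2 : y = yM k h := by
        apply unique_min_nu k h hh x hx y hy
        rw [← hye] at hxe'
        unfold Tmap' at hxe'
        simp only [Rf_Rf, Rf_enorm_sub] at hxe'
        exact hxe'
      rw [e1, ← hye, e2]
      exact enorm_sq_diff_ge k h
    · rw [Set.indicator_of_notMem hx]
      exact bot_le
  calc ENNReal.ofReal (h / 8) = rho k (Bx k h) := (rho_Bx k h hh hh1).symm
    _ = ∫⁻ x, Set.indicator (Bx k h) (fun _ => (1 : ℝ≥0∞)) x ∂(rho k) := by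
        rw [lintegral_indicator_const (measurableSet_Bx k h), one_mul]
    _ ≤ _ := lintegral_mono_ae hpt

lemma exists_small_h (α : ℝ) (hα : 1 / 3 < α) (C : ℝ) (hC : 0 ≤ C) :
    ∃ h : ℝ, 0 < h ∧ h ≤ 1 / 4 ∧ C * (12 * h ^ 3) ^ α < h / 8 := by
  set β : ℝ := 3 * α - 1 with hβ
  have hβpos : 0 < β := by rw [hβ]; linarith
  set D : ℝ := C * (12 : ℝ) ^ α with hD
  have hD0 : 0 ≤ D := by positivity
  set t : ℝ := (1 / (8 * (D + 1))) ^ (1 / β) with ht
  have ht0 : 0 < t := by positivity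
  have hpos : 0 < min (1 / 4 : ℝ) t := lt_min (by norm_num) ht0
  refine ⟨min (1 / 4) t, hpos, min_le_left _ _, ?_⟩
  generalize hhdef : min (1 / 4 : ℝ) t = h at hpos ⊢
  have hle : h ≤ t := by rw [← hhdef]; exact min_le_right _ _
  have h1 : h ^ β ≤ 1 / (8 * (D + 1)) := by
    calc h ^ β ≤ t ^ β := Real.rpow_le_rpow hpos.le hle hβpos.le
      _ = 1 / (8 * (D + 1)) := by
        rw [ht, ← Real.rpow_mul (by positivity), one_div_mul_cancel hβpos.ne', Real.rpow_one]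
  have h2 : (12 * h ^ 3) ^ α = (12 : ℝ) ^ α * (h ^ β * h) := by
    rw [Real.mul_rpow (by norm_num) (by positivity)]
    congr 1
    rw [← Real.rpow_natCast, ← Real.rpow_mul hpos.le]
    have : ((3 : ℕ) : ℝ) * α = β + 1 := by rw [hβ]; push_cast; ring
    rw [this, Real.rpow_add hpos, Real.rpow_one]
  rw [h2]
  have h3 : C * ((12 : ℝ) ^ α * (h ^ β * h)) = D * h ^ β * h := by rw [hD]; ring
  rw [h3]
  have h4 : D * h ^ β ≤ D * (1 / (8 * (D + 1))) := mul_le_mul_of_nonneg_left h1 hD0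
  have h5 : D * (1 / (8 * (D + 1))) < 1 / 8 := by
    rw [mul_one_div, div_lt_div_iff₀ (by positivity) (by norm_num)]
    nlinarith
  calc D * h ^ β * h ≤ D * (1 / (8 * (D + 1))) * h := mul_le_mul_of_nonneg_right h4 hpos.le
    _ < 1 / 8 * h := mul_lt_mul_of_pos_right h5 hpos
    _ = h / 8 := by ring

/-- The sharpness statement in dimension `k + 2`. -/
theorem main (k : ℕ) (α : ℝ) (hα : 1 / 3 < α) (C : ℝ≥0) :
    ∃ μ ν : Measure (Ek k),
      IsProbabilityOn (Q k) μ ∧ IsProbabilityOn (Q k) ν ∧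
      IsThreeAtomic μ ∧ IsThreeAtomic ν ∧
      (∃ T, IsOptimalMap (rho k) μ T) ∧ (∃ T, IsOptimalMap (rho k) ν T) ∧
      ∀ Tμ Tν : Ek k → Ek k, IsOptimalMap (rho k) μ Tμ → IsOptimalMap (rho k) ν Tν →
        ∃ π : Measure (Ek k × Ek k), IsPairCoupling μ ν π ∧
          (C : ℝ≥0∞) * quadCost π ^ α < ∫⁻ x, ‖Tμ x - Tν x‖ₑ ^ 2 ∂(rho k) := by
  obtain ⟨h, hh, hh1, hlt⟩ := exists_small_h α hα C (NNReal.coe_nonneg C)
  have habs : |h| ≤ 1 := by rw [abs_of_pos hh]; linarith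
  have hα0 : 0 ≤ α := by linarith
  refine ⟨muM k h, nuM k h, prob_muM k h habs, prob_nuM k h habs,
    threeAtomic_muM k h hh (by linarith), threeAtomic_nuM k h hh (by linarith),
    ⟨Tmap k h, optimal_Tmap k h hh.le⟩, ⟨Tmap' k h, optimal_Tmap' k h hh.le⟩, ?_⟩
  intro Tμ Tν hμ hν
  refine ⟨piM k h, coupling_piM k h, ?_⟩
  have hq : quadCost (piM k h) ^ α ≤ (ENNReal.ofReal (12 * h ^ 3)) ^ α :=
    ENNReal.rpow_le_rpow (quadCost_piM_le k h hh.le (by linarith)) hα0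
  calc (C : ℝ≥0∞) * quadCost (piM k h) ^ α
      ≤ (C : ℝ≥0∞) * (ENNReal.ofReal (12 * h ^ 3)) ^ α := by gcongr
    _ = ENNReal.ofReal (C * (12 * h ^ 3) ^ α) := by
        rw [ENNReal.ofReal_rpow_of_nonneg (by positivity) hα0, ENNReal.ofReal_mul (NNReal.coe_nonneg C),
          ENNReal.ofReal_coe_nnreal]
    _ < ENNReal.ofReal (h / 8) := (ENNReal.ofReal_lt_ofReal_iff (by positivity)).2 hlt
    _ ≤ _ := lower_bound k h hh hh1 Tμ Tν hμ hν

end Crest.Agent.S0110
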